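import Mathlib
import Crest.Prelude.Def_TreeProducts
import Crest.Agent.Helper2.TreeProd

/-!
# `L¹` packaging of the path products (S0169)

The classes `pp μ W v` of the path products inside the product span, their norms, the norms of
the sibling increments and the upper `ℓ²` estimate for sums of sibling increments.  The
integral-level facts are those of `Crest.Agent.Helper2.TP`.
-/

set_option autoImplicit false
open MeasureTheory ProbabilityTheory
open Crest Crest.AnalysisR Crest.AnalysisR.TreeProduct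
open Crest.Agent.Helper2.TP

namespace Crest.Agent.Helper15

variable {Ω : Type} [MeasurableSpace Ω] {μ : Measure Ω} {ν : Measure ℝ} {W : List ℕ → Ω → ℝ}

open Classical in
/-- The `L¹` class of the path product at `v` (zero if the path product is not integrable). -/
noncomputable def ppL1 (μ : Measure Ω) (W : List ℕ → Ω → ℝ) (v : List ℕ) : Lp ℝ 1 μ :=
  if h : Integrable (pathProduct W v) μ then h.toL1 _ else 0

lemma coeFn_ppL1 {v : List ℕ} (h : Integrable (pathProduct W v) μ) :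
    (ppL1 μ W v : Ω → ℝ) =ᵐ[μ] pathProduct W v := by
  unfold ppL1
  rw [dif_pos h]
  exact h.coeFn_toL1

lemma ppL1_mem (μ : Measure Ω) (W : List ℕ → Ω → ℝ) (v : List ℕ) :
    ppL1 μ W v ∈ productSpan μ W := by
  by_cases h : Integrable (pathProduct W v) μ
  · exact Submodule.le_topologicalClosure _ (Submodule.subset_span ⟨v, coeFn_ppL1 h⟩)
  · unfold ppL1
    rw [dif_neg h]
    exact Submodule.zero_mem _

/-- The class of the path product at `v`, as an element of the product span. -/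
noncomputable def pp (μ : Measure Ω) (W : List ℕ → Ω → ℝ) (v : List ℕ) : productSpan μ W :=
  ⟨ppL1 μ W v, ppL1_mem μ W v⟩

lemma norm_Lp_eq_of_ae_eq {x : Lp ℝ 1 μ} {g : Ω → ℝ} (h : (x : Ω → ℝ) =ᵐ[μ] g) :
    ‖x‖ = ∫ ω, |g ω| ∂μ := by
  rw [L1.norm_eq_integral_norm]
  refine integral_congr_ae ?_
  filter_upwards [h] with ω hω
  rw [hω, Real.norm_eq_abs]

lemma coeFn_sum_inc (hint : ∀ v, Integrable (pathProduct W v) μ) (v : List ℕ) (A : Finset ℕ)
    (c : ℕ → ℝ) :
    ((∑ a ∈ A, c a • (ppL1 μ W (a :: v) - ppL1 μ W v) : Lp ℝ 1 μ) : Ω → ℝ) =ᵐ[μ]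
      fun ω => pathProduct W v ω * incSum W v A c ω := by
  have h1 := Lp.coeFn_fun_finsetSum A (fun a => c a • (ppL1 μ W (a :: v) - ppL1 μ W v))
  have h2 : ∀ a ∈ A, ∀ᵐ ω ∂μ,
      ((c a • (ppL1 μ W (a :: v) - ppL1 μ W v) : Lp ℝ 1 μ) : Ω → ℝ) ω
        = c a * (pathProduct W (a :: v) ω - pathProduct W v ω) := by
    intro a _
    filter_upwards [Lp.coeFn_smul (c a) (ppL1 μ W (a :: v) - ppL1 μ W v),
      Lp.coeFn_sub (ppL1 μ W (a :: v)) (ppL1 μ W v), coeFn_ppL1 (hint (a :: v)),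
      coeFn_ppL1 (hint v)] with ω e1 e2 e3 e4
    rw [e1, Pi.smul_apply, e2, Pi.sub_apply, e3, e4, smul_eq_mul]
  have h3 : ∀ᵐ ω ∂μ, ∀ a ∈ A,
      ((c a • (ppL1 μ W (a :: v) - ppL1 μ W v) : Lp ℝ 1 μ) : Ω → ℝ) ω
        = c a * (pathProduct W (a :: v) ω - pathProduct W v ω) :=
    (Filter.eventually_all_finset A).2 h2
  filter_upwards [h1, h3] with ω e1 e3
  rw [e1, incSum, Finset.mul_sum]
  refine Finset.sum_congr rfl (fun a ha => ?_)
  rw [e3 a ha]
  simp only [pathProduct]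
  ring

section Norms

variable [IsProbabilityMeasure μ] [IsProbabilityMeasure ν]

theorem norm_pp (hW : IsRealization ν μ W) (hpos : ν (Set.Ioi 0) = 1)
    (hmean : ∫ x, x ∂ν = 1) (hm2 : Integrable (fun x : ℝ => x ^ 2) ν) (v : List ℕ) :
    ‖pp μ W v‖ = 1 := by
  have hint := (pathProduct_facts hW hpos hmean hm2 v).1
  rw [Submodule.coe_norm]
  show ‖ppL1 μ W v‖ = 1
  rw [norm_Lp_eq_of_ae_eq (coeFn_ppL1 hint)]
  exact integral_abs_pathProduct hW hpos hmean hm2 v

theorem norm_sum_inc (hW : IsRealization ν μ W) (hpos : ν (Set.Ioi 0) = 1)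
    (hmean : ∫ x, x ∂ν = 1) (hm2 : Integrable (fun x : ℝ => x ^ 2) ν) (v : List ℕ)
    (A : Finset ℕ) (c : ℕ → ℝ) :
    ‖∑ a ∈ A, c a • (pp μ W (a :: v) - pp μ W v)‖ = ∫ ω, |incSum W v A c ω| ∂μ := by
  rw [Submodule.coe_norm]
  have e : ((∑ a ∈ A, c a • (pp μ W (a :: v) - pp μ W v) : productSpan μ W) : Lp ℝ 1 μ)
      = ∑ a ∈ A, c a • (ppL1 μ W (a :: v) - ppL1 μ W v) := by
    simp [pp]
  rw [e, norm_Lp_eq_of_ae_eq
    (coeFn_sum_inc (fun v => (pathProduct_facts hW hpos hmean hm2 v).1) v A c)]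
  exact integral_abs_pathProduct_mul_incSum hW hpos hmean hm2 v A c

theorem norm_sum_le (hW : IsRealization ν μ W) (hpos : ν (Set.Ioi 0) = 1)
    (hmean : ∫ x, x ∂ν = 1) (hm2 : Integrable (fun x : ℝ => x ^ 2) ν) (v : List ℕ)
    (A : Finset ℕ) (c : ℕ → ℝ) :
    ‖∑ a ∈ A, c a • (pp μ W (a :: v) - pp μ W v)‖
      ≤ Real.sqrt (s2 ν) * Real.sqrt (∑ a ∈ A, c a ^ 2) := by
  rw [norm_sum_inc hW hpos hmean hm2]
  exact integral_abs_incSum_le hW hmean hm2 v A c

theorem norm_pp_cons_sub (hW : IsRealization ν μ W) (hpos : ν (Set.Ioi 0) = 1)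
    (hmean : ∫ x, x ∂ν = 1) (hm2 : Integrable (fun x : ℝ => x ^ 2) ν) (v : List ℕ) (a : ℕ) :
    ‖pp μ W (a :: v) - pp μ W v‖ = rho ν := by
  have h := norm_sum_inc hW hpos hmean hm2 v {a} (fun _ => 1)
  simp only [Finset.sum_singleton, one_smul] at h
  rw [h]
  have e : ∀ ω, incSum W v {a} (fun _ => 1) ω = W (a :: v) ω - 1 := by
    intro ω
    simp [incSum]
  simp only [e]
  exact integral_comp_W hW (v := a :: v) (by simp) (g := fun x => |x - 1|)
    (measurable_id.sub measurable_const).abs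

end Norms

end Crest.Agent.Helper15
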